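/-
S0351 package HAZEWINKEL, part 1: Hazewinkel's logarithm coefficients.
-/
import Crest.Agent.LT.Formal

set_option autoImplicit false

open Crest.LubinTate
open scoped Classical

namespace Crest.Agent.LT

noncomputable section

/-- Universal coefficient ring `ℤ[v₁, v₂, …]`; the variable of index `i` is `v_{i+1}`. -/
abbrev UR : Type := MvPolynomial ℕ ℤ

/-- `ℚ[v₁, v₂, …]`. -/
abbrev UQ : Type := MvPolynomial ℕ ℚ

/-- The inclusion `ℤ[v] → ℚ[v]`. -/
def URtoUQ : UR →+* UQ := MvPolynomial.map (Int.castRingHom ℚ)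

theorem URtoUQ_injective : Function.Injective URtoUQ :=
  MvPolynomial.map_injective _ Int.cast_injective

/-- Hazewinkel's logarithm coefficients: `ℓ₀ = 1`, `p ℓ_k = ∑_{i=1}^{k} ℓ_{k-i} v_i^(p^(k-i))`. -/
def hzEll (p : ℕ) : ℕ → UQ
  | 0 => 1
  | k + 1 => (p : ℚ)⁻¹ • ∑ i : Fin (k + 1), hzEll p (k - i.1) * MvPolynomial.X i.1 ^ (p ^ (k - i.1))
decreasing_by omega

variable (p : ℕ) [Fact p.Prime]

theorem p_ne_zero_UQ : (p : UQ) ≠ 0 := by
  have hp : (p : ℚ) ≠ 0 := Nat.cast_ne_zero.mpr (Fact.out : p.Prime).ne_zero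
  intro h
  have : (MvPolynomial.C (p : ℚ) : UQ) = 0 := by simpa using h
  rw [map_eq_zero_iff _ (MvPolynomial.C_injective _ _)] at this
  exact hp this

omit [Fact p.Prime] in
theorem hzEll_zero : hzEll p 0 = 1 := by
  rw [hzEll]

/-- Hazewinkel's recursion (`v_i` is `X (i-1)`). -/
theorem hzEll_rec (k : ℕ) (hk : 1 ≤ k) :
    (p : UQ) * hzEll p k =
      ∑ i ∈ Finset.Icc 1 k, hzEll p (k - i) * (MvPolynomial.X (i - 1)) ^ (p ^ (k - i)) := by
  obtain ⟨k, rfl⟩ : ∃ k', k = k' + 1 := ⟨k - 1, by omega⟩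
  have hp : (p : ℚ) ≠ 0 := Nat.cast_ne_zero.mpr (Fact.out : p.Prime).ne_zero
  rw [hzEll, ← MvPolynomial.C_mul', ← mul_assoc]
  have h1 : (p : UQ) * MvPolynomial.C ((p : ℚ)⁻¹) = 1 := by
    have : (p : UQ) = MvPolynomial.C (p : ℚ) := by simp
    rw [this, ← MvPolynomial.C_mul, mul_inv_cancel₀ hp, MvPolynomial.C_1]
  rw [h1, one_mul]
  rw [Finset.sum_fin_eq_sum_range]
  refine Finset.sum_bij (fun i _ => i + 1) ?_ ?_ ?_ ?_
  · intro a ha; simp only [Finset.mem_range] at ha; simp; omega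
  · intro a _ b _ h; omega
  · intro b hb; simp only [Finset.mem_Icc] at hb; exact ⟨b - 1, by simp; omega, by omega⟩
  · intro a ha
    simp only [Finset.mem_range] at ha
    rw [dif_pos ha]
    have e1 : k + 1 - (a + 1) = k - a := by omega
    rw [e1, Nat.add_sub_cancel]

/-- The sum over pairs appearing in both forms of the recursion. -/
theorem hzEll_rec' (k : ℕ) (hk : 1 ≤ k) :
    (p : UQ) * hzEll p k =
      ∑ i ∈ Finset.Icc 1 k, MvPolynomial.X (i - 1) *
        (MvPolynomial.expand (p ^ i) (hzEll p (k - i))) := by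
  induction k using Nat.strong_induction_on with
  | _ k ih =>
    have hp0 := p_ne_zero_UQ p
    have hsplit1 : Finset.Icc 1 k = insert k (Finset.Ico 1 k) := by
      ext x; simp only [Finset.mem_Icc, Finset.mem_insert, Finset.mem_Ico]; omega
    have hnk : k ∉ Finset.Ico 1 k := by simp
    rw [hzEll_rec p k hk, hsplit1, Finset.sum_insert hnk, Finset.sum_insert hnk]
    simp only [Nat.sub_self, pow_zero, pow_one, hzEll_zero, one_mul, map_one, mul_one]
    congr 1
    -- both sides are `p⁻¹` times the same double sum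
    apply mul_left_cancel₀ hp0
    rw [Finset.mul_sum, Finset.mul_sum]
    have hL : ∀ j ∈ Finset.Ico 1 k,
        (p : UQ) * (hzEll p (k - j) * MvPolynomial.X (j - 1) ^ p ^ (k - j)) =
        ∑ i ∈ Finset.Icc 1 (k - j), MvPolynomial.X (i - 1) *
          MvPolynomial.expand (p ^ i) (hzEll p (k - j - i)) *
            MvPolynomial.X (j - 1) ^ p ^ (k - j) := by
      intro j hj
      simp only [Finset.mem_Ico] at hj
      rw [← mul_assoc, ih (k - j) (by omega) (by omega), Finset.sum_mul]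
    have hR : ∀ i ∈ Finset.Ico 1 k,
        (p : UQ) * (MvPolynomial.X (i - 1) * MvPolynomial.expand (p ^ i) (hzEll p (k - i))) =
        ∑ j ∈ Finset.Icc 1 (k - i), MvPolynomial.X (i - 1) *
          MvPolynomial.expand (p ^ i) (hzEll p (k - i - j)) *
            MvPolynomial.X (j - 1) ^ p ^ (k - j) := by
      intro i hi
      simp only [Finset.mem_Ico] at hi
      have hexp : MvPolynomial.expand (p ^ i) ((p : UQ) * hzEll p (k - i)) =
          (p : UQ) * MvPolynomial.expand (p ^ i) (hzEll p (k - i)) := by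
        rw [map_mul, map_natCast]
      rw [mul_left_comm, ← hexp, hzEll_rec p (k - i) (by omega), map_sum, Finset.mul_sum]
      refine Finset.sum_congr rfl fun j hj => ?_
      simp only [Finset.mem_Icc] at hj
      rw [map_mul, map_pow, MvPolynomial.expand_X, ← pow_mul, ← pow_add, mul_assoc]
      congr 3
      have : i + (k - i - j) = k - j := by omega
      rw [this]
    rw [Finset.sum_congr rfl hL, Finset.sum_congr rfl hR]
    rw [Finset.sum_sigma', Finset.sum_sigma']
    refine Finset.sum_bij' (fun x _ => ⟨x.2, x.1⟩) (fun x _ => ⟨x.2, x.1⟩) ?_ ?_ ?_ ?_ ?_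
    · rintro ⟨j, i⟩ h; simp only [Finset.mem_sigma, Finset.mem_Ico, Finset.mem_Icc] at h ⊢; omega
    · rintro ⟨j, i⟩ h; simp only [Finset.mem_sigma, Finset.mem_Ico, Finset.mem_Icc] at h ⊢; omega
    · rintro ⟨j, i⟩ h; rfl
    · rintro ⟨j, i⟩ h; rfl
    · rintro ⟨j, i⟩ h
      simp only [Finset.mem_sigma, Finset.mem_Ico, Finset.mem_Icc] at h
      have : k - j - i = k - i - j := by omega
      simp only [this]

/-- `p^k ℓ_k` is integral. -/
theorem hzEll_integral (k : ℕ) : ∃ c : UR, (p : UQ) ^ k * hzEll p k = URtoUQ c := by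
  induction k using Nat.strong_induction_on with
  | _ k ih =>
    rcases Nat.eq_zero_or_pos k with rfl | hk
    · exact ⟨1, by simp [hzEll_zero]⟩
    choose! c hc using ih
    refine ⟨∑ i ∈ Finset.Icc 1 k, (p : UR) ^ (i - 1) * c (k - i) *
        (MvPolynomial.X (i - 1)) ^ (p ^ (k - i)), ?_⟩
    obtain ⟨k', rfl⟩ : ∃ k', k = k' + 1 := ⟨k - 1, by omega⟩
    rw [pow_succ, mul_assoc, hzEll_rec p (k' + 1) (by omega), map_sum, Finset.mul_sum]
    refine Finset.sum_congr rfl fun i hi => ?_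
    simp only [Finset.mem_Icc] at hi
    rw [map_mul, map_mul, map_pow, map_pow, map_natCast, ← hc (k' + 1 - i) (by omega)]
    have hX : URtoUQ (MvPolynomial.X (i - 1)) = MvPolynomial.X (i - 1) := by
      simp [URtoUQ]
    rw [hX, ← mul_assoc, ← mul_assoc, ← pow_add]
    congr 3
    omega

/-- The logarithm `∑ ℓ_k X^(p^k)` over `ℚ[v]`. -/
def hzLog : PowerSeries UQ :=
  PowerSeries.mk fun j => if ∃ k, j = p ^ k then hzEll p (Nat.log p j) else 0

theorem coeff_hzLog (k : ℕ) : PowerSeries.coeff (p ^ k) (hzLog p) = hzEll p k := by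
  have hp : 1 < p := (Fact.out : p.Prime).one_lt
  rw [hzLog, PowerSeries.coeff_mk, if_pos ⟨k, rfl⟩, Nat.log_pow hp]

theorem coeff_hzLog_of_not (j : ℕ) (hj : ¬ ∃ k, j = p ^ k) :
    PowerSeries.coeff j (hzLog p) = 0 := by
  rw [hzLog, PowerSeries.coeff_mk, if_neg hj]

end

end Crest.Agent.LT
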