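/-
S0351 package HAZEWINKEL, part 2: order tools and series supported on powers of `p`.
-/
import Crest.Agent.LT.Hazewinkel.Basic

set_option autoImplicit false

open Crest.LubinTate
open scoped Classical

namespace Crest.Agent.LT

noncomputable section

section OrderTools

variable {τ : Type*} {L : Type*} [CommRing L]

open MvPowerSeries

theorem coeff_eq_of_le_order_sub {a b : MvPowerSeries τ L} {n : ℕ}
    (h : (n : ℕ∞) ≤ (a - b).order) {d : τ →₀ ℕ} (hd : d.degree < n) :
    coeff d a = coeff d b := by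
  have : coeff d (a - b) = 0 := coeff_of_lt_order (lt_of_lt_of_le (by exact_mod_cast hd) h)
  rwa [map_sub, sub_eq_zero] at this

theorem le_order_sub_of_coeff_eq {a b : MvPowerSeries τ L} {n : ℕ}
    (h : ∀ d : τ →₀ ℕ, d.degree < n → coeff d a = coeff d b) :
    (n : ℕ∞) ≤ (a - b).order := by
  refine nat_le_order fun d hd => ?_
  rw [map_sub, h d hd, sub_self]

/-- Difference of powers gains one order if both series have zero constant term. -/
theorem le_order_pow_sub_pow {a b : MvPowerSeries τ L} (ha : constantCoeff a = 0)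
    (hb : constantCoeff b = 0) {n : ℕ} (hab : (n : ℕ∞) ≤ (a - b).order) {m : ℕ} (hm : 2 ≤ m) :
    ((n + 1 : ℕ) : ℕ∞) ≤ (a ^ m - b ^ m).order := by
  have hS : constantCoeff (∑ i ∈ Finset.range m, a ^ i * b ^ (m - 1 - i)) = 0 := by
    rw [map_sum]
    refine Finset.sum_eq_zero fun i hi => ?_
    simp only [Finset.mem_range] at hi
    rw [map_mul, map_pow, map_pow, ha, hb]
    by_cases h0 : i = 0
    · subst h0
      rw [zero_pow (by omega : m - 1 - 0 ≠ 0), mul_zero]
    · rw [zero_pow h0, zero_mul]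
  have h1 : (1 : ℕ∞) ≤ (∑ i ∈ Finset.range m, a ^ i * b ^ (m - 1 - i)).order :=
    (one_le_order_iff_constCoeff_eq_zero).mpr hS
  rw [← geom_sum₂_mul]
  refine le_trans ?_ le_order_mul
  push_cast
  rw [add_comm]
  exact add_le_add h1 hab

/-- Difference of powers keeps the order. -/
theorem le_order_pow_sub_pow' {a b : MvPowerSeries τ L} {n : ℕ} (hab : (n : ℕ∞) ≤ (a - b).order)
    (m : ℕ) : (n : ℕ∞) ≤ (a ^ m - b ^ m).order := by
  rw [← geom_sum₂_mul]
  refine le_trans ?_ le_order_mul
  exact le_trans hab le_add_self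

/-- Lift of a truncation. -/
theorem exists_lift_trunc {A : Type*} [CommRing A] (ι : A →+* L) (f : MvPowerSeries τ L) (n : ℕ)
    (h : ∀ d : τ →₀ ℕ, d.degree < n → coeff d f ∈ ι.range) (h0 : constantCoeff f = 0) :
    ∃ g : MvPowerSeries τ A, (n : ℕ∞) ≤ (f - map ι g).order ∧ constantCoeff g = 0 := by
  have h' : ∀ d : τ →₀ ℕ, ∃ a : A, (d.degree < n ∧ d ≠ 0 → ι a = coeff d f) ∧ (d = 0 ∨ n ≤ d.degree → a = 0) := by
    intro d
    by_cases hd : d.degree < n ∧ d ≠ 0
    · obtain ⟨a, ha⟩ := h d hd.1
      refine ⟨a, fun _ => ha, fun h2 => ?_⟩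
      rcases h2 with h2 | h2
      · exact absurd h2 hd.2
      · omega
    · refine ⟨0, fun h2 => absurd h2 hd, fun _ => rfl⟩
  choose a ha ha' using h'
  have hg : ∃ g : MvPowerSeries τ A, ∀ d, coeff d g = a d := ⟨a, fun _ => rfl⟩
  obtain ⟨g, hg⟩ := hg
  refine ⟨g, ?_, ?_⟩
  · refine le_order_sub_of_coeff_eq fun d hd => ?_
    rw [coeff_map, hg]
    by_cases hd0 : d = 0
    · subst hd0
      rw [ha' 0 (Or.inl rfl), map_zero, coeff_zero_eq_constantCoeff_apply, h0]
    · exact (ha d ⟨hd, hd0⟩).symm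
  · rw [← coeff_zero_eq_constantCoeff_apply, hg]
    exact ha' 0 (Or.inl rfl)

end OrderTools

section Log

variable {L : Type*} [CommRing L] {τ : Type*}

open MvPowerSeries

/-- Injectivity of composition with an invertible series. -/
theorem subst_inj_of_unit (g : PowerSeries L) (h0 : PowerSeries.constantCoeff g = 0)
    (hu : IsUnit (PowerSeries.coeff 1 g)) {u w : MvPowerSeries τ L}
    (hu0 : constantCoeff u = 0) (hw0 : constantCoeff w = 0)
    (h : PowerSeries.subst u g = PowerSeries.subst w g) : u = w := by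
  have hsu : PowerSeries.HasSubst u := PowerSeries.HasSubst.of_constantCoeff_zero hu0
  have hsw : PowerSeries.HasSubst w := PowerSeries.HasSubst.of_constantCoeff_zero hw0
  have hsg : PowerSeries.HasSubst g := PowerSeries.HasSubst.of_constantCoeff_zero' h0
  have key : ∀ x : MvPowerSeries τ L, PowerSeries.HasSubst x →
      PowerSeries.subst (PowerSeries.subst x g) (compInv g) = x := by
    intro x hx
    rw [← PowerSeries.subst_comp_subst_apply hsg hx]
    have : PowerSeries.subst g (compInv g) = PowerSeries.X := compInv_scomp g h0 hu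
    rw [this, PowerSeries.subst_X hx]
  rw [← key u hsu, ← key w hsw, h]

end Log

section PSeries

variable (p : ℕ) [Fact p.Prime]
variable {L : Type*} [CommRing L] {τ : Type*}

open MvPowerSeries

/-- The series `∑ c_k X^(p^k)`. -/
def pSeries (c : ℕ → L) : PowerSeries L :=
  PowerSeries.mk fun j => if ∃ k, j = p ^ k then c (Nat.log p j) else 0

theorem coeff_pSeries (c : ℕ → L) (k : ℕ) : PowerSeries.coeff (p ^ k) (pSeries p c) = c k := by
  have hp : 1 < p := (Fact.out : p.Prime).one_lt
  rw [pSeries, PowerSeries.coeff_mk, if_pos ⟨k, rfl⟩, Nat.log_pow hp]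

theorem coeff_pSeries_of_not (c : ℕ → L) (j : ℕ) (hj : ¬ ∃ k, j = p ^ k) :
    PowerSeries.coeff j (pSeries p c) = 0 := by
  rw [pSeries, PowerSeries.coeff_mk, if_neg hj]

theorem hzLog_eq_pSeries : hzLog p = pSeries p (hzEll p) := rfl

theorem map_pSeries {S : Type*} [CommRing S] (φ : L →+* S) (c : ℕ → L) :
    PowerSeries.map φ (pSeries p c) = pSeries p (fun k => φ (c k)) := by
  ext j
  rw [PowerSeries.coeff_map]
  by_cases hj : ∃ k, j = p ^ k
  · obtain ⟨k, rfl⟩ := hj
    rw [coeff_pSeries, coeff_pSeries]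
  · rw [coeff_pSeries_of_not p _ _ hj, coeff_pSeries_of_not p _ _ hj, map_zero]

theorem constantCoeff_pSeries (c : ℕ → L) : PowerSeries.constantCoeff (pSeries p c) = 0 := by
  have hp := (Fact.out : p.Prime)
  rw [← PowerSeries.coeff_zero_eq_constantCoeff_apply, coeff_pSeries_of_not]
  rintro ⟨k, hk⟩
  exact (pow_ne_zero k hp.ne_zero) hk.symm

theorem coeff_one_pSeries (c : ℕ → L) : PowerSeries.coeff 1 (pSeries p c) = c 0 := by
  have := coeff_pSeries p c 0
  simpa using this

/-- Coefficient of a substitution in a `p`-series. -/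
theorem coeff_subst_pSeries (c : ℕ → L) {a : MvPowerSeries τ L} (ha : constantCoeff a = 0)
    (d : τ →₀ ℕ) (N : ℕ) (hN : d.degree < p ^ N) :
    coeff d (PowerSeries.subst a (pSeries p c)) =
      ∑ k ∈ Finset.range N, c k * coeff d (a ^ (p ^ k)) := by
  have hp := (Fact.out : p.Prime)
  have hsa : PowerSeries.HasSubst a := PowerSeries.HasSubst.of_constantCoeff_zero ha
  rw [PowerSeries.coeff_subst hsa]
  have hinj : Function.Injective (fun k : ℕ => p ^ k) := Nat.pow_right_injective hp.two_le
  rw [finsum_eq_sum_of_support_subset (s := (Finset.range N).image (fun k => p ^ k))]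
  · rw [Finset.sum_image (fun x _ y _ h => hinj h)]
    refine Finset.sum_congr rfl fun k _ => ?_
    rw [coeff_pSeries, smul_eq_mul]
  · intro j hj
    simp only [Function.mem_support, ne_eq] at hj
    by_cases hj' : ∃ k, j = p ^ k
    · obtain ⟨k, rfl⟩ := hj'
      simp only [Finset.coe_image, Finset.coe_range, Set.mem_image, Set.mem_Iio]
      refine ⟨k, ?_, rfl⟩
      by_contra hk
      apply hj
      have hk' : N ≤ k := not_lt.mp hk
      have h1 : ((p ^ k : ℕ) : ℕ∞) ≤ (a ^ (p ^ k)).order :=
        le_order_pow_of_constantCoeff_eq_zero _ ha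
      have h2 : d.degree < p ^ k := lt_of_lt_of_le hN (Nat.pow_le_pow_right hp.pos hk')
      rw [coeff_of_lt_order (lt_of_lt_of_le (by exact_mod_cast h2) h1), smul_zero]
    · exfalso
      apply hj
      rw [coeff_pSeries_of_not p c j hj', zero_smul]

/-- `p`-series respect congruences modulo high degree. -/
theorem coeff_subst_pSeries_congr (c : ℕ → L) {a b : MvPowerSeries τ L}
    (ha : constantCoeff a = 0) (hb : constantCoeff b = 0) {n : ℕ}
    (hab : ((n + 1 : ℕ) : ℕ∞) ≤ (a - b).order) (d : τ →₀ ℕ) (hd : d.degree ≤ n) :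
    coeff d (PowerSeries.subst a (pSeries p c)) = coeff d (PowerSeries.subst b (pSeries p c)) := by
  have hlt : d.degree < p ^ (d.degree + 1) :=
    lt_trans (Nat.lt_add_one _) (Nat.lt_pow_self (Fact.out : p.Prime).one_lt)
  rw [coeff_subst_pSeries p c ha d _ hlt, coeff_subst_pSeries p c hb d _ hlt]
  refine Finset.sum_congr rfl fun k _ => ?_
  congr 1
  exact coeff_eq_of_le_order_sub (le_order_pow_sub_pow' hab _) (by omega)

end PSeries

end

end Crest.Agent.LT
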