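/-
S0351 package HAZEWINKEL, part 3: the functional equation lemma, integrality of Hazewinkel's law.
-/
import Crest.Agent.LT.Hazewinkel.Series

set_option autoImplicit false

open Crest.LubinTate
open scoped Classical

namespace Crest.Agent.LT

noncomputable section

variable (p : ℕ) [Fact p.Prime]

open MvPowerSeries

/-- `σ^i` on `ℚ[v]`. -/
abbrev sigQ (i : ℕ) : UQ →+* UQ := (MvPolynomial.expand (p ^ i) : UQ →ₐ[ℚ] UQ).toRingHom

/-- `σ^i` on `ℤ[v]`. -/
abbrev sigZ (i : ℕ) : UR →+* UR := (MvPolynomial.expand (p ^ i) : UR →ₐ[ℤ] UR).toRingHom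

omit [Fact p.Prime] in
theorem sig_compat (i : ℕ) (a : UR) : URtoUQ (sigZ p i a) = sigQ p i (URtoUQ a) :=
  MvPolynomial.map_expand _ _ _

/-- `σ^i_* log`. -/
def hzG (i : ℕ) : PowerSeries UQ := pSeries p (fun k => MvPolynomial.expand (p ^ i) (hzEll p k))

theorem hzG_eq_map (i : ℕ) : hzG p i = PowerSeries.map (sigQ p i) (hzLog p) := by
  rw [hzLog_eq_pSeries, map_pSeries]
  rfl

section E1

variable {τ : Type*}

/-- The functional equation at the level of coefficients, multiplied by `p`. -/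
theorem coeff_subst_hzLog (u : MvPowerSeries τ UQ) (hu : constantCoeff u = 0) (d : τ →₀ ℕ)
    (N : ℕ) (hN1 : 1 ≤ N) (hN : d.degree < p ^ N) :
    (p : UQ) * coeff d (PowerSeries.subst u (hzLog p)) =
      (p : UQ) * coeff d u +
        ∑ i ∈ Finset.Ico 1 N, MvPolynomial.X (i - 1) *
          coeff d (PowerSeries.subst (u ^ (p ^ i)) (hzG p i)) := by
  have hp := (Fact.out : p.Prime)
  set C : ℕ → UQ := fun k => coeff d (u ^ (p ^ k)) with hC
  have hC0 : ∀ k, N ≤ k → C k = 0 := by
    intro k hk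
    have h1 : ((p ^ k : ℕ) : ℕ∞) ≤ (u ^ (p ^ k)).order :=
      le_order_pow_of_constantCoeff_eq_zero _ hu
    have h2 : d.degree < p ^ k := lt_of_lt_of_le hN (Nat.pow_le_pow_right hp.pos hk)
    exact coeff_of_lt_order (lt_of_lt_of_le (by exact_mod_cast h2) h1)
  rw [hzLog_eq_pSeries, coeff_subst_pSeries p _ hu d N hN]
  have hsplit : Finset.range N = insert 0 (Finset.Ico 1 N) := by
    ext x; simp only [Finset.mem_range, Finset.mem_insert, Finset.mem_Ico]; omega
  have h0 : (0 : ℕ) ∉ Finset.Ico 1 N := by simp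
  rw [hsplit, Finset.sum_insert h0, mul_add, Finset.mul_sum]
  simp only [pow_zero, pow_one, hzEll_zero, one_mul]
  congr 1
  have hL : ∀ k ∈ Finset.Ico 1 N, (p : UQ) * (hzEll p k * coeff d (u ^ (p ^ k))) =
      ∑ i ∈ Finset.Icc 1 k, MvPolynomial.X (i - 1) *
        (MvPolynomial.expand (p ^ i) (hzEll p (k - i)) * C k) := by
    intro k hk
    simp only [Finset.mem_Ico] at hk
    rw [← mul_assoc, hzEll_rec' p k hk.1, Finset.sum_mul]
    refine Finset.sum_congr rfl fun i _ => ?_
    rw [mul_assoc]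
  have hR : ∀ i ∈ Finset.Ico 1 N, MvPolynomial.X (i - 1) *
      coeff d (PowerSeries.subst (u ^ (p ^ i)) (hzG p i)) =
      ∑ m ∈ Finset.range (N - i), MvPolynomial.X (i - 1) *
        (MvPolynomial.expand (p ^ i) (hzEll p m) * C (i + m)) := by
    intro i hi
    simp only [Finset.mem_Ico] at hi
    have hu' : constantCoeff (u ^ (p ^ i)) = 0 := by
      rw [map_pow, hu, zero_pow (pow_ne_zero _ hp.ne_zero)]
    rw [hzG, coeff_subst_pSeries p _ hu' d N hN, Finset.mul_sum]
    symm
    rw [← Finset.sum_subset (s₁ := Finset.range (N - i)) (s₂ := Finset.range N)]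
    · refine Finset.sum_congr rfl fun m _ => ?_
      rw [hC]
      simp only
      rw [← pow_mul, ← pow_add]
    · intro x hx; simp only [Finset.mem_range] at hx ⊢; omega
    · intro m hm hm'
      simp only [Finset.mem_range] at hm hm'
      have : coeff d ((u ^ p ^ i) ^ p ^ m) = 0 := by
        rw [← pow_mul, ← pow_add]
        exact hC0 (i + m) (by omega)
      rw [this, mul_zero, mul_zero]
  rw [Finset.sum_congr rfl hL, Finset.sum_congr rfl hR, Finset.sum_sigma', Finset.sum_sigma']
  refine Finset.sum_bij' (fun x _ => ⟨x.2, x.1 - x.2⟩) (fun x _ => ⟨x.1 + x.2, x.1⟩) ?_ ?_ ?_ ?_ ?_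
  · rintro ⟨k, i⟩ h
    simp only [Finset.mem_sigma, Finset.mem_Ico, Finset.mem_Icc, Finset.mem_range] at h ⊢
    omega
  · rintro ⟨i, m⟩ h
    simp only [Finset.mem_sigma, Finset.mem_Ico, Finset.mem_Icc, Finset.mem_range] at h ⊢
    omega
  · rintro ⟨k, i⟩ h
    simp only [Finset.mem_sigma, Finset.mem_Ico, Finset.mem_Icc] at h
    have : i + (k - i) = k := by omega
    simp [this]
  · rintro ⟨i, m⟩ h
    simp
  · rintro ⟨k, i⟩ h
    simp only [Finset.mem_sigma, Finset.mem_Ico, Finset.mem_Icc] at h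
    have : i + (k - i) = k := by omega
    simp only [this]

end E1

section E5

variable {τ : Type*}

/-- Congruence lemma: if `a ≡ b` modulo `p` then `G(a) ≡ G(b)` modulo `p`. -/
theorem coeff_subst_sub_mem (i : ℕ) (a b : MvPowerSeries τ UR) (ha : constantCoeff a = 0)
    (hb : constantCoeff b = 0) (hdvd : ∀ d, (p : UR) ∣ coeff d (a - b)) (d : τ →₀ ℕ) :
    ∃ w : UR, coeff d (PowerSeries.subst (map URtoUQ a) (hzG p i)) -
      coeff d (PowerSeries.subst (map URtoUQ b) (hzG p i)) = (p : UQ) * URtoUQ w := by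
  have hp := (Fact.out : p.Prime)
  -- divisibility in the power series ring
  have hdvd' : (p : MvPowerSeries τ UR) ∣ a - b := by
    choose e he using hdvd
    obtain ⟨g, hg⟩ : ∃ g : MvPowerSeries τ UR, ∀ d, coeff d g = e d := ⟨e, fun _ => rfl⟩
    refine ⟨g, MvPowerSeries.ext fun d => ?_⟩
    have : (p : MvPowerSeries τ UR) = C (p : UR) := by simp
    rw [this, coeff_C_mul, hg]
    exact he d
  have hk : ∀ k : ℕ, ∃ e : MvPowerSeries τ UR, a ^ (p ^ k) - b ^ (p ^ k) =
      (p : MvPowerSeries τ UR) ^ (k + 1) * e := fun k => dvd_sub_pow_of_dvd_sub hdvd' k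
  choose e he using hk
  choose c hc using hzEll_integral p
  have hlt : d.degree < p ^ (d.degree + 1) :=
    lt_trans (Nat.lt_add_one _) (Nat.lt_pow_self hp.one_lt)
  have hma : constantCoeff (map URtoUQ a) = 0 := by
    rw [constantCoeff_map, ha, map_zero]
  have hmb : constantCoeff (map URtoUQ b) = 0 := by
    rw [constantCoeff_map, hb, map_zero]
  refine ⟨∑ k ∈ Finset.range (d.degree + 1), sigZ p i (c k) * coeff d (e k), ?_⟩
  rw [hzG, coeff_subst_pSeries p _ hma d _ hlt, coeff_subst_pSeries p _ hmb d _ hlt,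
    ← Finset.sum_sub_distrib, map_sum, Finset.mul_sum]
  refine Finset.sum_congr rfl fun k _ => ?_
  rw [← mul_sub, ← map_pow, ← map_pow, coeff_map, coeff_map, ← map_sub, ← map_sub, he k]
  have hpp : ((p : MvPowerSeries τ UR) ^ (k + 1)) = C ((p : UR) ^ (k + 1)) := by simp
  rw [hpp, coeff_C_mul, map_mul, map_mul, sig_compat, ← hc k, map_pow, map_natCast]
  have hexp : MvPolynomial.expand (p ^ i) ((p : UQ) ^ k * hzEll p k) =
      (p : UQ) ^ k * MvPolynomial.expand (p ^ i) (hzEll p k) := by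
    rw [map_mul, map_pow, map_natCast]
  change _ = (p : UQ) * (MvPolynomial.expand (p ^ i) ((p : UQ) ^ k * hzEll p k) * _)
  rw [hexp, pow_succ]
  ring

end E5

section E4

variable {τ : Type*}

omit [Fact p.Prime] in
private theorem expand_pow_zmod [Fact p.Prime] (i : ℕ) (f : MvPolynomial ℕ (ZMod p)) :
    MvPolynomial.expand (p ^ i) f = f ^ (p ^ i) := by
  induction i generalizing f with
  | zero => simp
  | succ i ih =>
    rw [pow_succ, MvPolynomial.expand_mul, MvPolynomial.expand_zmod, ih, ← pow_mul]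
    rw [mul_comm]

/-- The Frobenius congruence: `h^(p^i) ≡ (σ^i_* h)(X^(p^i))` modulo `p`. -/
theorem dvd_coeff_expand_sub_pow (i : ℕ) (h : MvPowerSeries τ UR) (d : τ →₀ ℕ) :
    (p : UR) ∣ coeff d (expand (p ^ i) (pow_ne_zero _ (Fact.out : p.Prime).ne_zero)
      (map (sigZ p i) h) - h ^ (p ^ i)) := by
  have hp := (Fact.out : p.Prime)
  have hpC : (p : UR) = MvPolynomial.C ((p : ℕ) : ℤ) := by simp
  rw [hpC, MvPolynomial.C_dvd_iff_zmod]
  set π : UR →+* MvPolynomial ℕ (ZMod p) := MvPolynomial.map (Int.castRingHom (ZMod p)) with hπ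
  have hq : p ^ i ≠ 0 := pow_ne_zero _ hp.ne_zero
  have hexp : ∀ a : UR, π (sigZ p i a) = iterateFrobenius (MvPolynomial ℕ (ZMod p)) p i (π a) := by
    intro a
    rw [iterateFrobenius_def]
    change MvPolynomial.map _ (MvPolynomial.expand (p ^ i) a) = _
    rw [MvPolynomial.map_expand, expand_pow_zmod]
  have key : map π (expand (p ^ i) hq (map (sigZ p i) h)) = map π (h ^ (p ^ i)) := by
    rw [map_expand, map_pow, ← map_iterateFrobenius_expand p hp.ne_zero (map π h) i,
      map_expand, ]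
    congr 1
    ext e
    simp only [coeff_map, hexp]
  have := congrArg (coeff d) key
  rw [coeff_map, coeff_map] at this
  rw [map_sub, map_sub]
  change π _ - π _ = 0
  rw [this, sub_self]

end E4

/-! ### The rational law -/

theorem constantCoeff_hzLog : PowerSeries.constantCoeff (hzLog p) = 0 :=
  constantCoeff_pSeries p _

theorem coeff_one_hzLog : PowerSeries.coeff 1 (hzLog p) = 1 := by
  rw [hzLog_eq_pSeries, coeff_one_pSeries, hzEll_zero]

theorem isUnit_coeff_one_hzLog : IsUnit (PowerSeries.coeff 1 (hzLog p)) := by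
  rw [coeff_one_hzLog]; exact isUnit_one

/-- The inverse series of the logarithm. -/
def hzExp : PowerSeries UQ := compInv (hzLog p)

theorem constantCoeff_hzExp : PowerSeries.constantCoeff (hzExp p) = 0 :=
  constantCoeff_compInv _ (constantCoeff_hzLog p) (isUnit_coeff_one_hzLog p)

section Compose

variable {τ : Type*}

theorem constantCoeff_subst_eq_zero' {L : Type*} [CommRing L] (g : PowerSeries L)
    (hg : PowerSeries.constantCoeff g = 0) (a : MvPowerSeries τ L) (ha : constantCoeff a = 0) :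
    constantCoeff (PowerSeries.subst a g) = 0 :=
  PowerSeries.constantCoeff_subst_eq_zero ha g hg

theorem log_subst_exp (a : MvPowerSeries τ UQ) (ha : constantCoeff a = 0) :
    PowerSeries.subst (PowerSeries.subst a (hzExp p)) (hzLog p) = a := by
  have hsa : PowerSeries.HasSubst a := PowerSeries.HasSubst.of_constantCoeff_zero ha
  have hse : PowerSeries.HasSubst (hzExp p) :=
    PowerSeries.HasSubst.of_constantCoeff_zero' (constantCoeff_hzExp p)
  rw [← PowerSeries.subst_comp_subst_apply hse hsa]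
  have : PowerSeries.subst (hzExp p) (hzLog p) = PowerSeries.X :=
    scomp_compInv _ (constantCoeff_hzLog p) (isUnit_coeff_one_hzLog p)
  rw [this, PowerSeries.subst_X hsa]

theorem exp_subst_log (a : MvPowerSeries τ UQ) (ha : constantCoeff a = 0) :
    PowerSeries.subst (PowerSeries.subst a (hzLog p)) (hzExp p) = a := by
  have hsa : PowerSeries.HasSubst a := PowerSeries.HasSubst.of_constantCoeff_zero ha
  have hse : PowerSeries.HasSubst (hzLog p) :=
    PowerSeries.HasSubst.of_constantCoeff_zero' (constantCoeff_hzLog p)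
  rw [← PowerSeries.subst_comp_subst_apply hse hsa]
  have : PowerSeries.subst (hzLog p) (hzExp p) = PowerSeries.X :=
    compInv_scomp _ (constantCoeff_hzLog p) (isUnit_coeff_one_hzLog p)
  rw [this, PowerSeries.subst_X hsa]

end Compose

/-- The sum of the logarithms in `X`, `Y`. -/
def hzSum : MvPowerSeries (Fin 2) UQ :=
  PowerSeries.subst (X 0 : MvPowerSeries (Fin 2) UQ) (hzLog p) +
    PowerSeries.subst (X 1 : MvPowerSeries (Fin 2) UQ) (hzLog p)

theorem constantCoeff_hzSum : constantCoeff (hzSum p) = 0 := by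
  rw [hzSum, map_add, constantCoeff_subst_eq_zero' _ (constantCoeff_hzLog p) _ (by simp),
    constantCoeff_subst_eq_zero' _ (constantCoeff_hzLog p) _ (by simp), add_zero]

/-- Hazewinkel's law over `ℚ[v]`: `exp(log X + log Y)`. -/
def hzFQ : MvPowerSeries (Fin 2) UQ := PowerSeries.subst (hzSum p) (hzExp p)

theorem constantCoeff_hzFQ : constantCoeff (hzFQ p) = 0 :=
  constantCoeff_subst_eq_zero' _ (constantCoeff_hzExp p) _ (constantCoeff_hzSum p)

theorem hzFQ_log : PowerSeries.subst (hzFQ p) (hzLog p) = hzSum p :=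
  log_subst_exp p _ (constantCoeff_hzSum p)

/-- E2: the twisted version of the logarithm identity. -/
theorem hzG_add (i : ℕ) (hq : p ^ i ≠ 0) :
    PowerSeries.subst (expand (p ^ i) hq (map (sigQ p i) (hzFQ p))) (hzG p i) =
      PowerSeries.subst ((X 0 : MvPowerSeries (Fin 2) UQ) ^ (p ^ i)) (hzG p i) +
        PowerSeries.subst ((X 1 : MvPowerSeries (Fin 2) UQ) ^ (p ^ i)) (hzG p i) := by
  have hF : PowerSeries.HasSubst (hzFQ p) :=
    PowerSeries.HasSubst.of_constantCoeff_zero (constantCoeff_hzFQ p)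
  have h1 := congrArg (map (sigQ p i)) (hzFQ_log p)
  rw [PowerSeries.map_subst hF, ← hzG_eq_map, hzSum, map_add,
    PowerSeries.map_subst (PowerSeries.HasSubst.X _), PowerSeries.map_subst (PowerSeries.HasSubst.X _),
    ← hzG_eq_map, map_X, map_X] at h1
  have hsF : PowerSeries.HasSubst (map (sigQ p i) (hzFQ p)) :=
    PowerSeries.HasSubst.of_constantCoeff_zero (by
      rw [constantCoeff_map, constantCoeff_hzFQ, map_zero])
  have h2 := congrArg (expand (p ^ i) hq) h1
  rw [map_add, PowerSeries.subst_def, PowerSeries.subst_def, PowerSeries.subst_def,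
    expand_subst _ _ hsF.const, expand_subst _ _ (PowerSeries.HasSubst.X _).const,
    expand_subst _ _ (PowerSeries.HasSubst.X _).const] at h2
  simpa only [expand_X, PowerSeries.subst_def] using h2

/-- The bracket: twisted sum minus the `p^i`-th power is divisible by `p`, in degree `≤ n`,
assuming integrality in degrees `< n`. -/
theorem bracket_mem (i : ℕ) (hi : 1 ≤ i) (n : ℕ) (hn : 1 ≤ n) (h : MvPowerSeries (Fin 2) UR)
    (hord : (n : ℕ∞) ≤ (hzFQ p - map URtoUQ h).order) (hh0 : constantCoeff h = 0)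
    (d : Fin 2 →₀ ℕ) (hd : d.degree ≤ n) :
    ∃ w : UR, coeff d (PowerSeries.subst ((X 0 : MvPowerSeries (Fin 2) UQ) ^ (p ^ i)) (hzG p i)) +
        coeff d (PowerSeries.subst ((X 1 : MvPowerSeries (Fin 2) UQ) ^ (p ^ i)) (hzG p i)) -
        coeff d (PowerSeries.subst ((hzFQ p) ^ (p ^ i)) (hzG p i)) = (p : UQ) * URtoUQ w := by
  have hp := (Fact.out : p.Prime)
  have hq : p ^ i ≠ 0 := pow_ne_zero _ hp.ne_zero
  have hq2 : 2 ≤ p ^ i := le_trans hp.two_le (Nat.le_self_pow (by omega) p)
  set α : MvPowerSeries (Fin 2) UR := expand (p ^ i) hq (map (sigZ p i) h) with hα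
  set β : MvPowerSeries (Fin 2) UR := h ^ (p ^ i) with hβ
  have hα0 : constantCoeff α = 0 := by
    rw [hα, constantCoeff_expand, constantCoeff_map, hh0, map_zero]
  have hβ0 : constantCoeff β = 0 := by
    rw [hβ, map_pow, hh0, zero_pow hq]
  obtain ⟨w, hw⟩ := coeff_subst_sub_mem p i α β hα0 hβ0 (dvd_coeff_expand_sub_pow p i h) d
  refine ⟨w, ?_⟩
  rw [← hw, ← map_add, ← hzG_add p i hq]
  -- comparison of the two first terms
  have hmapα : map URtoUQ α = expand (p ^ i) hq (map (sigQ p i) (map URtoUQ h)) := by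
    rw [hα, map_expand]
    congr 1
    ext e
    simp only [coeff_map, sig_compat]
  have hA0 : constantCoeff (expand (p ^ i) hq (map (sigQ p i) (hzFQ p))) = 0 := by
    rw [constantCoeff_expand, constantCoeff_map, constantCoeff_hzFQ, map_zero]
  have hB0 : constantCoeff (map URtoUQ α) = 0 := by rw [constantCoeff_map, hα0, map_zero]
  have hC0 : constantCoeff (hzFQ p ^ (p ^ i)) = 0 := by
    rw [map_pow, constantCoeff_hzFQ, zero_pow hq]
  have hD0 : constantCoeff (map URtoUQ β) = 0 := by rw [constantCoeff_map, hβ0, map_zero]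
  have h1 : ((n + 1 : ℕ) : ℕ∞) ≤
      (expand (p ^ i) hq (map (sigQ p i) (hzFQ p)) - map URtoUQ α).order := by
    rw [hmapα, ← map_sub, ← map_sub, order_expand]
    have h2 : (n : ℕ∞) ≤ (map (sigQ p i) (hzFQ p - map URtoUQ h)).order :=
      le_trans hord (le_order_map _)
    have h3 : (p ^ i) • (n : ℕ∞) ≤ (p ^ i) • (map (sigQ p i) (hzFQ p - map URtoUQ h)).order :=
      nsmul_le_nsmul_right h2 _
    refine le_trans ?_ h3
    have h4 : n + 1 ≤ p ^ i * n := by nlinarith
    simpa using (by exact_mod_cast h4 : ((n + 1 : ℕ) : ℕ∞) ≤ ((p ^ i * n : ℕ) : ℕ∞))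
  have h2 : ((n + 1 : ℕ) : ℕ∞) ≤ (hzFQ p ^ (p ^ i) - map URtoUQ β).order := by
    rw [hβ, map_pow]
    exact le_order_pow_sub_pow (constantCoeff_hzFQ p) (by rw [constantCoeff_map, hh0, map_zero])
      hord hq2
  rw [hzG, coeff_subst_pSeries_congr p _ hA0 hB0 h1 d hd, coeff_subst_pSeries_congr p _ hC0 hD0 h2 d hd]

/-- **Functional equation lemma**: integrality of the coefficients of `hzFQ`. -/
theorem hzFQ_integral (d : Fin 2 →₀ ℕ) : coeff d (hzFQ p) ∈ URtoUQ.range := by
  have hp := (Fact.out : p.Prime)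
  induction hn : d.degree using Nat.strong_induction_on generalizing d with
  | _ n ih =>
    rcases Nat.eq_zero_or_pos n with rfl | hnpos
    · have : d = 0 := by
        rwa [Finsupp.degree_eq_zero_iff] at hn
      subst this
      rw [coeff_zero_eq_constantCoeff_apply, constantCoeff_hzFQ]
      exact zero_mem _
    obtain ⟨h, hord, hh0⟩ := exists_lift_trunc URtoUQ (hzFQ p) n
      (fun d' hd' => ih _ hd' d' rfl) (constantCoeff_hzFQ p)
    have hlt : d.degree < p ^ (n + 1) := by
      rw [hn]; exact lt_trans (Nat.lt_add_one _) (Nat.lt_pow_self hp.one_lt)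
    have e1 := coeff_subst_hzLog p (hzFQ p) (constantCoeff_hzFQ p) d (n + 1) (by omega) hlt
    have e2 := coeff_subst_hzLog p (X 0 : MvPowerSeries (Fin 2) UQ) (by simp) d (n + 1) (by omega) hlt
    have e3 := coeff_subst_hzLog p (X 1 : MvPowerSeries (Fin 2) UQ) (by simp) d (n + 1) (by omega) hlt
    have e4 : coeff d (PowerSeries.subst (hzFQ p) (hzLog p)) =
        coeff d (PowerSeries.subst (X 0 : MvPowerSeries (Fin 2) UQ) (hzLog p)) +
          coeff d (PowerSeries.subst (X 1 : MvPowerSeries (Fin 2) UQ) (hzLog p)) := by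
      rw [hzFQ_log, hzSum, map_add]
    have hb : ∀ i ∈ Finset.Ico 1 (n + 1), ∃ w : UR,
        coeff d (PowerSeries.subst ((X 0 : MvPowerSeries (Fin 2) UQ) ^ (p ^ i)) (hzG p i)) +
        coeff d (PowerSeries.subst ((X 1 : MvPowerSeries (Fin 2) UQ) ^ (p ^ i)) (hzG p i)) -
        coeff d (PowerSeries.subst ((hzFQ p) ^ (p ^ i)) (hzG p i)) = (p : UQ) * URtoUQ w := by
      intro i hi
      simp only [Finset.mem_Ico] at hi
      exact bracket_mem p i hi.1 n hnpos h hord hh0 d hn.le
    choose! w hw using hb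
    have hX : ∀ j : Fin 2, coeff d (X j : MvPowerSeries (Fin 2) UQ) ∈ URtoUQ.range := by
      intro j
      rw [coeff_X]
      split_ifs
      · exact one_mem _
      · exact zero_mem _
    obtain ⟨a0, ha0⟩ := hX 0
    obtain ⟨a1, ha1⟩ := hX 1
    refine ⟨a0 + a1 + ∑ i ∈ Finset.Ico 1 (n + 1), MvPolynomial.X (i - 1) * w i, ?_⟩
    apply mul_left_cancel₀ (p_ne_zero_UQ p)
    rw [map_add, map_add, ha0, ha1, map_sum]
    have e5 : (p : UQ) * coeff d (hzFQ p) = (p : UQ) * coeff d (X 0 : MvPowerSeries (Fin 2) UQ) +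
        (p : UQ) * coeff d (X 1 : MvPowerSeries (Fin 2) UQ) +
        ∑ i ∈ Finset.Ico 1 (n + 1), MvPolynomial.X (i - 1) *
          (coeff d (PowerSeries.subst ((X 0 : MvPowerSeries (Fin 2) UQ) ^ (p ^ i)) (hzG p i)) +
           coeff d (PowerSeries.subst ((X 1 : MvPowerSeries (Fin 2) UQ) ^ (p ^ i)) (hzG p i)) -
           coeff d (PowerSeries.subst ((hzFQ p) ^ (p ^ i)) (hzG p i))) := by
      simp only [mul_sub, mul_add, Finset.sum_sub_distrib, Finset.sum_add_distrib]
      rw [e4, mul_add, e2, e3] at e1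
      linear_combination -e1
    rw [e5, mul_add, mul_add, Finset.mul_sum]
    congr 1
    refine Finset.sum_congr rfl fun i hi => ?_
    rw [hw i hi, map_mul]
    have hX' : URtoUQ (MvPolynomial.X (i - 1)) = MvPolynomial.X (i - 1) := by
      simp [URtoUQ]
    rw [hX']
    ring

end

end Crest.Agent.LT
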