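/-
S0351 package HAZEWINKEL, part 4: the law `HZ`, logarithm API for laws.
-/
import Crest.Agent.LT.Hazewinkel.Integrality

set_option autoImplicit false

open Crest.LubinTate
open scoped Classical

namespace Crest.Agent.LT

noncomputable section

open MvPowerSeries

section General

variable {R S : Type*} [CommRing R] [CommRing S] {τ : Type*}

theorem hasSubst_two {a b : MvPowerSeries τ R} (ha : PowerSeries.HasSubst a)
    (hb : PowerSeries.HasSubst b) : MvPowerSeries.HasSubst ![a, b] :=
  hasSubst_of_constantCoeff_nilpotent fun s => by fin_cases s <;> simpa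

/-- Compatibility of the two-point substitution with coefficient maps. -/
theorem map_subst_two (h : R →+* S) (F : MvPowerSeries (Fin 2) R) {a b : MvPowerSeries τ R}
    (ha : PowerSeries.HasSubst a) (hb : PowerSeries.HasSubst b) :
    map h (F.subst ![a, b]) = (map h F).subst ![map h a, map h b] := by
  rw [MvPowerSeries.map_subst (hasSubst_two ha hb)]
  congr 1
  funext s
  fin_cases s <;> rfl

theorem subst_two_subst_X {L : Type*} [CommRing L] (f : PowerSeries L) {a b : MvPowerSeries τ L}
    (ha : PowerSeries.HasSubst a) (hb : PowerSeries.HasSubst b) (s : Fin 2) :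
    MvPowerSeries.subst ![a, b] (PowerSeries.subst (X s : MvPowerSeries (Fin 2) L) f) =
      PowerSeries.subst ((![a, b] : Fin 2 → MvPowerSeries τ L) s) f := by
  rw [PowerSeries.subst_def, PowerSeries.subst_def,
    MvPowerSeries.subst_comp_subst_apply (PowerSeries.HasSubst.X s).const (hasSubst_two ha hb),
    MvPowerSeries.subst_X (hasSubst_two ha hb)]

/-- `g` is a logarithm of the law `F`. -/
structure IsLog {L : Type*} [CommRing L] (F : FormalGroup L) (g : PowerSeries L) : Prop where
  c0 : PowerSeries.constantCoeff g = 0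
  c1 : IsUnit (PowerSeries.coeff 1 g)
  add : PowerSeries.subst F.toPowerSeries g =
    PowerSeries.subst (X 0 : MvPowerSeries (Fin 2) L) g +
      PowerSeries.subst (X 1 : MvPowerSeries (Fin 2) L) g

namespace IsLog

variable {L : Type*} [CommRing L] {F : FormalGroup L} {g : PowerSeries L}

theorem subst_law (hg : IsLog F g) {a b : MvPowerSeries τ L} (ha : PowerSeries.HasSubst a)
    (hb : PowerSeries.HasSubst b) :
    PowerSeries.subst (F.toPowerSeries.subst ![a, b]) g =
      PowerSeries.subst a g + PowerSeries.subst b g := by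
  have h2 := hasSubst_two ha hb
  have h := congrArg (MvPowerSeries.subst ![a, b]) hg.add
  rw [PowerSeries.subst_def, MvPowerSeries.subst_comp_subst_apply
      (PowerSeries.HasSubst.of_constantCoeff_zero F.zero_constantCoeff).const h2,
    MvPowerSeries.subst_add h2, subst_two_subst_X g ha hb, subst_two_subst_X g ha hb] at h
  simpa [PowerSeries.subst_def] using h

theorem inj (hg : IsLog F g) {u w : MvPowerSeries τ L} (hu : PowerSeries.HasSubst u)
    (hw : PowerSeries.HasSubst w) (h : PowerSeries.subst u g = PowerSeries.subst w g) : u = w := by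
  have hsg : PowerSeries.HasSubst g := PowerSeries.HasSubst.of_constantCoeff_zero' hg.c0
  have key : ∀ x : MvPowerSeries τ L, PowerSeries.HasSubst x →
      PowerSeries.subst (PowerSeries.subst x g) (compInv g) = x := by
    intro x hx
    rw [← PowerSeries.subst_comp_subst_apply hsg hx]
    have : PowerSeries.subst g (compInv g) = PowerSeries.X := compInv_scomp g hg.c0 hg.c1
    rw [this, PowerSeries.subst_X hx]
  rw [← key u hu, ← key w hw, h]

end IsLog

end General

section HZ

variable (p : ℕ) [Fact p.Prime]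

theorem map_URtoUQ_injective {τ : Type*} : Function.Injective
    (map URtoUQ : MvPowerSeries τ UR → MvPowerSeries τ UQ) := by
  intro a b h
  refine MvPowerSeries.ext fun d => URtoUQ_injective ?_
  have := congrArg (coeff d) h
  rwa [coeff_map, coeff_map] at this

/-- The integral lift of `hzFQ`. -/
def hzF : MvPowerSeries (Fin 2) UR :=
  fun d => Classical.choose (hzFQ_integral p d)

theorem map_hzF : map URtoUQ (hzF p) = hzFQ p :=
  MvPowerSeries.ext fun d => by
    rw [coeff_map]
    exact Classical.choose_spec (hzFQ_integral p d)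

theorem hasSubst_hzFQ : MvPowerSeries.constantCoeff (hzF p) = 0 := by
  apply URtoUQ_injective
  rw [← constantCoeff_map, map_hzF, constantCoeff_hzFQ, map_zero]

section

variable {τ : Type*}

theorem subst_hzSum {a b : MvPowerSeries τ UQ} (ha : PowerSeries.HasSubst a)
    (hb : PowerSeries.HasSubst b) :
    MvPowerSeries.subst ![a, b] (hzSum p) =
      PowerSeries.subst a (hzLog p) + PowerSeries.subst b (hzLog p) := by
  rw [hzSum, MvPowerSeries.subst_add (hasSubst_two ha hb), subst_two_subst_X _ ha hb,
    subst_two_subst_X _ ha hb]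
  rfl

theorem subst_hzFQ {a b : MvPowerSeries τ UQ} (ha : PowerSeries.HasSubst a)
    (hb : PowerSeries.HasSubst b) :
    MvPowerSeries.subst ![a, b] (hzFQ p) =
      PowerSeries.subst (PowerSeries.subst a (hzLog p) + PowerSeries.subst b (hzLog p)) (hzExp p) := by
  have h0 : PowerSeries.HasSubst (hzSum p) :=
    PowerSeries.HasSubst.of_constantCoeff_zero (constantCoeff_hzSum p)
  rw [hzFQ, PowerSeries.subst_def, MvPowerSeries.subst_comp_subst_apply h0.const
    (hasSubst_two ha hb), subst_hzSum p ha hb]
  rfl

theorem constantCoeff_log_zero {a : MvPowerSeries τ UQ} (ha : constantCoeff a = 0) :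
    constantCoeff (PowerSeries.subst a (hzLog p)) = 0 :=
  constantCoeff_subst_eq_zero' _ (constantCoeff_hzLog p) _ ha

theorem subst_hzFQ_log {a b : MvPowerSeries τ UQ} (ha : constantCoeff a = 0)
    (hb : constantCoeff b = 0) :
    PowerSeries.subst (MvPowerSeries.subst ![a, b] (hzFQ p)) (hzLog p) =
      PowerSeries.subst a (hzLog p) + PowerSeries.subst b (hzLog p) := by
  rw [subst_hzFQ p (PowerSeries.HasSubst.of_constantCoeff_zero ha)
    (PowerSeries.HasSubst.of_constantCoeff_zero hb)]
  apply log_subst_exp
  rw [map_add, constantCoeff_log_zero p ha, constantCoeff_log_zero p hb, add_zero]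

theorem constantCoeff_subst_hzFQ {a b : MvPowerSeries τ UQ} (ha : constantCoeff a = 0)
    (hb : constantCoeff b = 0) : constantCoeff (MvPowerSeries.subst ![a, b] (hzFQ p)) = 0 := by
  rw [subst_hzFQ p (PowerSeries.HasSubst.of_constantCoeff_zero ha)
    (PowerSeries.HasSubst.of_constantCoeff_zero hb)]
  apply constantCoeff_subst_eq_zero' _ (constantCoeff_hzExp p)
  rw [map_add, constantCoeff_log_zero p ha, constantCoeff_log_zero p hb, add_zero]

end

/-- Linear coefficients of `hzFQ`. -/
theorem coeff_single_hzFQ (s : Fin 2) : coeff (Finsupp.single s 1) (hzFQ p) = 1 := by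
  have hp := (Fact.out : p.Prime)
  have hd : (Finsupp.single s 1 : Fin 2 →₀ ℕ).degree < p ^ 1 := by
    simpa using hp.one_lt
  have hp0 := p_ne_zero_UQ p
  have e1 := coeff_subst_hzLog p (hzFQ p) (constantCoeff_hzFQ p) (Finsupp.single s 1) 1 le_rfl hd
  have e2 := coeff_subst_hzLog p (X 0 : MvPowerSeries (Fin 2) UQ) (by simp) (Finsupp.single s 1) 1 le_rfl hd
  have e3 := coeff_subst_hzLog p (X 1 : MvPowerSeries (Fin 2) UQ) (by simp) (Finsupp.single s 1) 1 le_rfl hd
  simp only [Finset.Ico_self, Finset.sum_empty, add_zero] at e1 e2 e3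
  have e4 : coeff (Finsupp.single s 1) (PowerSeries.subst (hzFQ p) (hzLog p)) =
      coeff (Finsupp.single s 1) (PowerSeries.subst (X 0 : MvPowerSeries (Fin 2) UQ) (hzLog p)) +
        coeff (Finsupp.single s 1) (PowerSeries.subst (X 1 : MvPowerSeries (Fin 2) UQ) (hzLog p)) := by
    rw [hzFQ_log, hzSum, map_add]
  apply mul_left_cancel₀ hp0
  rw [← e1, e4, mul_add, e2, e3, mul_one]
  fin_cases s <;> simp [coeff_X, Finsupp.single_left_inj (one_ne_zero : (1 : ℕ) ≠ 0)]

/-- **Hazewinkel's law** over `ℤ[v]`. -/
def HZ (p : ℕ) [Fact p.Prime] : FormalGroup UR where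
  toPowerSeries := hzF p
  zero_constantCoeff := hasSubst_hzFQ p
  lin_coeff_X := by
    apply URtoUQ_injective
    rw [← coeff_map, map_hzF, coeff_single_hzFQ, map_one]
  lin_coeff_Y := by
    apply URtoUQ_injective
    rw [← coeff_map, map_hzF, coeff_single_hzFQ, map_one]
  assoc := by
    apply map_URtoUQ_injective
    have hF0 : constantCoeff (hzF p) = 0 := hasSubst_hzFQ p
    have hF : PowerSeries.HasSubst (hzF p) := PowerSeries.HasSubst.of_constantCoeff_zero hF0
    have hX : ∀ s : Fin 3, PowerSeries.HasSubst (X s : MvPowerSeries (Fin 3) UR) :=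
      fun s => PowerSeries.HasSubst.X s
    have hX0 : ∀ s : Fin 3, constantCoeff (X s : MvPowerSeries (Fin 3) UQ) = 0 :=
      fun s => by simp
    have hXq : ∀ s : Fin 3, PowerSeries.HasSubst (X s : MvPowerSeries (Fin 3) UQ) :=
      fun s => PowerSeries.HasSubst.X s
    have hsubst : ∀ s t : Fin 3, PowerSeries.HasSubst
        (MvPowerSeries.subst ![(X s : MvPowerSeries (Fin 3) UR), X t] (hzF p)) := by
      intro s t
      exact IsNilpotent_subst (hasSubst_two (hX s) (hX t)) (by rw [hF0]; exact IsNilpotent.zero)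
    rw [map_subst_two _ _ (hsubst 0 1) (hX 2), map_subst_two _ _ (hX 0) (hsubst 1 2),
      map_subst_two _ _ (hX 0) (hX 1), map_subst_two _ _ (hX 1) (hX 2), map_hzF]
    simp only [map_X]
    have h01 := constantCoeff_subst_hzFQ p (hX0 0) (hX0 1)
    have h12 := constantCoeff_subst_hzFQ p (hX0 1) (hX0 2)
    rw [subst_hzFQ p (PowerSeries.HasSubst.of_constantCoeff_zero h01) (hXq 2),
      subst_hzFQ p (hXq 0) (PowerSeries.HasSubst.of_constantCoeff_zero h12),
      subst_hzFQ_log p (hX0 0) (hX0 1), subst_hzFQ_log p (hX0 1) (hX0 2), add_assoc]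

theorem HZ_toPowerSeries : (HZ p).toPowerSeries = hzF p := rfl

instance : (HZ p).IsComm where
  comm := by
    apply map_URtoUQ_injective
    change map URtoUQ (hzF p) = map URtoUQ (MvPowerSeries.subst _ (hzF p))
    rw [map_subst_two _ _ (PowerSeries.HasSubst.X _) (PowerSeries.HasSubst.X _), map_hzF]
    simp only [map_X]
    rw [subst_hzFQ p (PowerSeries.HasSubst.X _) (PowerSeries.HasSubst.X _), add_comm]
    rfl

/-- The logarithm identity. -/
theorem hz_log (F : FormalGroup UQ) (hF : F = (HZ p).map URtoUQ) :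
    PowerSeries.subst F.toPowerSeries (hzLog p) =
      PowerSeries.subst (MvPowerSeries.X 0 : MvPowerSeries (Fin 2) UQ) (hzLog p) +
        PowerSeries.subst (MvPowerSeries.X 1 : MvPowerSeries (Fin 2) UQ) (hzLog p) := by
  subst hF
  change PowerSeries.subst (map URtoUQ (hzF p)) (hzLog p) = _
  rw [map_hzF, hzFQ_log, hzSum]

end HZ

end

end Crest.Agent.LT
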