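/-
S0351 package HAZEWINKEL, part 5: specialisations, logarithms of specialisations, tokens.
-/
import Crest.Agent.LT.Hazewinkel.Law

set_option autoImplicit false

open Crest.LubinTate
open scoped Classical

namespace Crest.Agent.LT

noncomputable section

open MvPowerSeries

variable (p : ℕ) [Fact p.Prime]

section Specialise

variable {R S : Type*} [CommRing R] [CommRing S]

/-- The specialisation map `ℤ[v] → R`, `X i ↦ v i` (so `v i` is the value of `v_{i+1}`). -/
def specHomZ (v : ℕ → R) : UR →+* R := MvPolynomial.eval₂Hom (Int.castRingHom R) v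

@[simp] theorem specHomZ_X (v : ℕ → R) (i : ℕ) : specHomZ v (MvPolynomial.X i) = v i := by
  simp [specHomZ]

theorem comp_specHomZ (φ : R →+* S) (v : ℕ → R) :
    φ.comp (specHomZ v) = specHomZ (fun i => φ (v i)) := by
  apply MvPolynomial.ringHom_ext
  · intro r
    simp [specHomZ]
  · intro i
    simp

/-- The law with parameters `v`. -/
def hzv (v : ℕ → R) : FormalGroup R := (HZ p).map (specHomZ v)

instance (v : ℕ → R) : (hzv p v).IsComm := isComm_map _ _

theorem hzv_map (φ : R →+* S) (v : ℕ → R) : (hzv p v).map φ = hzv p (fun i => φ (v i)) := by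
  unfold hzv
  rw [map_map_law, comp_specHomZ]

theorem hzv_toPowerSeries (v : ℕ → R) : (hzv p v).toPowerSeries = map (specHomZ v) (hzF p) := rfl

omit [Fact p.Prime] in
theorem aeval_comp_URtoUQ {L : Type*} [CommRing L] [Algebra ℚ L] (v : ℕ → L) :
    (MvPolynomial.aeval v : UQ →ₐ[ℚ] L).toRingHom.comp URtoUQ = specHomZ v := by
  apply MvPolynomial.ringHom_ext
  · intro r
    simp [specHomZ, URtoUQ]
  · intro i
    simp [URtoUQ]

theorem hzv_toPowerSeries' {L : Type*} [CommRing L] [Algebra ℚ L] (v : ℕ → L) :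
    (hzv p v).toPowerSeries = map (MvPolynomial.aeval v : UQ →ₐ[ℚ] L).toRingHom (hzFQ p) := by
  rw [hzv_toPowerSeries, ← map_hzF, map_map, aeval_comp_URtoUQ]

/-- The logarithm over a `ℚ`-algebra. -/
theorem hzv_log {L : Type*} [CommRing L] [Algebra ℚ L] (v : ℕ → L) :
    PowerSeries.subst (hzv p v).toPowerSeries
        (PowerSeries.map (MvPolynomial.aeval v : UQ →ₐ[ℚ] L).toRingHom (hzLog p)) =
      PowerSeries.subst (MvPowerSeries.X 0 : MvPowerSeries (Fin 2) L)
          (PowerSeries.map (MvPolynomial.aeval v : UQ →ₐ[ℚ] L).toRingHom (hzLog p)) +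
        PowerSeries.subst (MvPowerSeries.X 1 : MvPowerSeries (Fin 2) L)
          (PowerSeries.map (MvPolynomial.aeval v : UQ →ₐ[ℚ] L).toRingHom (hzLog p)) := by
  set f := (MvPolynomial.aeval v : UQ →ₐ[ℚ] L).toRingHom with hf
  have h := congrArg (map f) (hzFQ_log p)
  have hF : PowerSeries.HasSubst (hzFQ p) :=
    PowerSeries.HasSubst.of_constantCoeff_zero (constantCoeff_hzFQ p)
  rw [PowerSeries.map_subst hF, hzSum, map_add, PowerSeries.map_subst (PowerSeries.HasSubst.X _),
    PowerSeries.map_subst (PowerSeries.HasSubst.X _), map_X, map_X] at h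
  rw [hzv_toPowerSeries' p v, h]

/-- The value of `ℓ_k` at parameters `v`. -/
def ellOf {L : Type*} [CommRing L] [Algebra ℚ L] (v : ℕ → L) (k : ℕ) : L :=
  (MvPolynomial.aeval v : UQ →ₐ[ℚ] L) (hzEll p k)

variable {L : Type*} [CommRing L] [Algebra ℚ L]

omit [Fact p.Prime] in
theorem ellOf_zero (v : ℕ → L) : ellOf p v 0 = 1 := by
  rw [ellOf, hzEll_zero, map_one]

theorem ellOf_rec (v : ℕ → L) (k : ℕ) (hk : 1 ≤ k) :
    (p : L) * ellOf p v k =
      ∑ i ∈ Finset.Icc 1 k, ellOf p v (k - i) * (v (i - 1)) ^ (p ^ (k - i)) := by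
  have := congrArg (MvPolynomial.aeval v : UQ →ₐ[ℚ] L) (hzEll_rec p k hk)
  simpa only [map_mul, map_natCast, map_sum, map_pow, MvPolynomial.aeval_X, ellOf] using this

theorem ellOf_integral {B : Type*} [CommRing B] (ι : B →+* L) (w : ℕ → B) (k : ℕ) :
    ∃ c : B, (p : L) ^ k * ellOf p (fun i => ι (w i)) k = ι c := by
  obtain ⟨c, hc⟩ := hzEll_integral p k
  refine ⟨specHomZ w c, ?_⟩
  have h := congrArg (MvPolynomial.aeval (fun i => ι (w i)) : UQ →ₐ[ℚ] L) hc
  rw [map_mul, map_pow, map_natCast] at h
  rw [ellOf, h]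
  have h2 := RingHom.congr_fun (aeval_comp_URtoUQ (fun i => ι (w i))) c
  have h3 := RingHom.congr_fun (comp_specHomZ ι w) c
  simp only [RingHom.comp_apply] at h2 h3
  rw [h3]
  exact h2

/-- The logarithm of the law with parameters `v` as a `p`-series. -/
def logOf (v : ℕ → L) : PowerSeries L := pSeries p (ellOf p v)

theorem logOf_eq (v : ℕ → L) :
    logOf p v = PowerSeries.map (MvPolynomial.aeval v : UQ →ₐ[ℚ] L).toRingHom (hzLog p) := by
  rw [hzLog_eq_pSeries, map_pSeries]
  rfl

theorem isLog_hzv (v : ℕ → L) : IsLog (hzv p v) (logOf p v) where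
  c0 := constantCoeff_pSeries p _
  c1 := by
    rw [logOf, coeff_one_pSeries, ellOf_zero]
    exact isUnit_one
  add := by
    rw [logOf_eq]
    exact hzv_log p v

end Specialise

section Points

variable {R S : Type*} [CommRing R] [CommRing S] {τ ι : Type*}

theorem hasSubst_map (φ : R →+* S) {a : MvPowerSeries τ R} (ha : PowerSeries.HasSubst a) :
    PowerSeries.HasSubst (map φ a) := by
  unfold PowerSeries.HasSubst at *
  rw [constantCoeff_map]
  exact ha.map φ

theorem map_point_add {F : FormalGroup R} (φ : R →+* S) (x y : F.Point τ) :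
    map φ (x + y).val = (F.map φ).toPowerSeries.subst ![map φ x.val, map φ y.val] := by
  rw [FormalGroup.add_apply, map_subst_two _ _ x.prop y.prop]
  rfl

/-- Mapping a finite sum of points. -/
theorem map_point_sum {F : FormalGroup R} [F.IsComm] (φ : R →+* S) [(F.map φ).IsComm] (s : Finset ι)
    (x : ι → F.Point τ) (y : ι → (F.map φ).Point τ) (hxy : ∀ i, map φ (x i).val = (y i).val) :
    map φ (∑ i ∈ s, x i).val = (∑ i ∈ s, y i).val := by
  induction s using Finset.induction_on with
  | empty =>
    simp only [Finset.sum_empty, FormalGroup.zero_apply, map_zero]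
  | insert a s ha ih =>
    rw [Finset.sum_insert ha, Finset.sum_insert ha, map_point_add, FormalGroup.add_apply, ih, hxy]

theorem IsLog.subst_point_sum {F : FormalGroup R} [F.IsComm] {g : PowerSeries R} (hg : IsLog F g)
    (s : Finset ι) (x : ι → F.Point τ) :
    PowerSeries.subst (∑ i ∈ s, x i).val g = ∑ i ∈ s, PowerSeries.subst (x i).val g := by
  induction s using Finset.induction_on with
  | empty =>
    simp only [Finset.sum_empty, FormalGroup.zero_apply]
    exact PowerSeries.subst_zero_of_constantCoeff_zero hg.c0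
  | insert a s ha ih =>
    rw [Finset.sum_insert ha, Finset.sum_insert ha, FormalGroup.add_apply,
      hg.subst_law (x a).prop (∑ i ∈ s, x i).prop, ih]

/-- A "token" `c X^e` as a point of the formal group (for finite `F`-sums of tokens). -/
def tokenPt (F : FormalGroup R) (c : R) (e : ℕ) (he : e ≠ 0) : F.Point Unit :=
  ⟨PowerSeries.C c * PowerSeries.X ^ e,
    PowerSeries.HasSubst.of_constantCoeff_zero' (by simp [he])⟩

theorem hzTokenPt_val (F : FormalGroup R) (c : R) (e : ℕ) (he : e ≠ 0) :
    (tokenPt F c e he).val = PowerSeries.C c * PowerSeries.X ^ e := rfl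

theorem map_tokenPt (F : FormalGroup R) (φ : R →+* S) (c : R) (e : ℕ) (he : e ≠ 0) :
    map φ (tokenPt F c e he).val = (tokenPt (F.map φ) (φ c) e he).val := by
  change PowerSeries.map φ _ = _
  rw [hzTokenPt_val, hzTokenPt_val, map_mul, map_pow, PowerSeries.map_C, PowerSeries.map_X]

theorem IsLog.subst_mulSeries {F : FormalGroup R} {g : PowerSeries R} (hg : IsLog F g) (m : ℕ) :
    PowerSeries.subst (mulSeries F m) g = (m : PowerSeries R) * g := by
  induction m with
  | zero =>
    simp only [mulSeries, Nat.cast_zero, zero_mul]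
    exact PowerSeries.subst_zero_of_constantCoeff_zero hg.c0
  | succ m ih =>
    have h1 : PowerSeries.HasSubst (mulSeries F m) :=
      PowerSeries.HasSubst.of_constantCoeff_zero' (constantCoeff_mulSeries F m)
    rw [mulSeries, hg.subst_law h1 PowerSeries.HasSubst.X', ih, PowerSeries.X_subst]
    push_cast
    ring

end Points

end

end Crest.Agent.LT
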