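/-
S0351 package HAZEWINKEL, part 6: the `p`-series in characteristic `p`.
-/
import Crest.Agent.LT.Hazewinkel.Spec

set_option autoImplicit false

open Crest.LubinTate
open scoped Classical

namespace Crest.Agent.LT

noncomputable section

open MvPowerSeries

variable (p : ℕ) [Fact p.Prime]

section Tokens

variable {L : Type*} [CommRing L]

theorem coeff_subst_pSeries' (c : ℕ → L) {a : PowerSeries L} (ha : PowerSeries.constantCoeff a = 0)
    (m N : ℕ) (hN : m < p ^ N) :
    PowerSeries.coeff m (PowerSeries.subst a (pSeries p c)) =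
      ∑ k ∈ Finset.range N, c k * PowerSeries.coeff m (a ^ (p ^ k)) :=
  coeff_subst_pSeries p c (a := a) ha (Finsupp.single () m) N (by simpa using hN)

theorem token_pow (c : L) (e k : ℕ) :
    (PowerSeries.C c * PowerSeries.X ^ e : PowerSeries L) ^ k =
      PowerSeries.C (c ^ k) * PowerSeries.X ^ (e * k) := by
  rw [mul_pow, ← pow_mul, map_pow]

theorem subst_token_pSeries (a : ℕ → L) (c : L) (j : ℕ) :
    PowerSeries.subst (PowerSeries.C c * PowerSeries.X ^ (p ^ j) : PowerSeries L) (pSeries p a) =
      pSeries p (fun l => if j ≤ l then a (l - j) * c ^ (p ^ (l - j)) else 0) := by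
  have hp := (Fact.out : p.Prime)
  have hb0 : PowerSeries.constantCoeff
      (PowerSeries.C c * PowerSeries.X ^ (p ^ j) : PowerSeries L) = 0 := by
    rw [map_mul, map_pow, PowerSeries.constantCoeff_X, zero_pow (pow_ne_zero j hp.ne_zero), mul_zero]
  have hinj : Function.Injective (fun k : ℕ => p ^ k) := Nat.pow_right_injective hp.two_le
  ext m
  have hlt : m < p ^ (m + 1) := lt_trans (Nat.lt_add_one _) (Nat.lt_pow_self hp.one_lt)
  rw [coeff_subst_pSeries' p a hb0 m (m + 1) hlt]
  simp only [token_pow, ← pow_add, PowerSeries.coeff_C_mul_X_pow]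
  by_cases hm : ∃ l, m = p ^ l
  · obtain ⟨l, rfl⟩ := hm
    rw [coeff_pSeries]
    by_cases hjl : j ≤ l
    · rw [if_pos hjl, Finset.sum_eq_single (l - j)]
      · rw [if_pos (by rw [show j + (l - j) = l by omega])]
      · intro k _ hk
        rw [if_neg, mul_zero]
        intro h
        have := hinj h
        omega
      · intro h
        exfalso
        apply h
        simp only [Finset.mem_range]
        have : l < p ^ l := Nat.lt_pow_self hp.one_lt
        omega
    · rw [if_neg hjl]
      refine Finset.sum_eq_zero fun k _ => ?_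
      rw [if_neg, mul_zero]
      intro h
      have := hinj h
      omega
  · rw [coeff_pSeries_of_not p _ _ hm]
    refine Finset.sum_eq_zero fun k _ => ?_
    rw [if_neg, mul_zero]
    intro h
    exact hm ⟨_, h⟩

theorem sum_pSeries {ι : Type*} (s : Finset ι) (b : ι → ℕ → L) :
    ∑ i ∈ s, pSeries p (b i) = pSeries p (fun l => ∑ i ∈ s, b i l) := by
  ext m
  rw [map_sum]
  by_cases hm : ∃ l, m = p ^ l
  · obtain ⟨l, rfl⟩ := hm
    simp only [coeff_pSeries]
  · simp only [coeff_pSeries_of_not p _ _ hm, Finset.sum_const_zero]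

/-- The `p`-series of `r a_l` for `l ≥ 1`. -/
theorem pSeries_add_C_mul_X (a : ℕ → L) (h0 : a 0 = 1) (r : L) :
    pSeries p (fun l => if l = 0 then 0 else r * a l) + PowerSeries.C r * PowerSeries.X =
      PowerSeries.C r * pSeries p a := by
  have hp := (Fact.out : p.Prime)
  ext m
  rw [map_add, PowerSeries.coeff_C_mul, PowerSeries.coeff_C_mul, PowerSeries.coeff_X]
  by_cases hm : ∃ l, m = p ^ l
  · obtain ⟨l, rfl⟩ := hm
    rw [coeff_pSeries, coeff_pSeries]
    rcases Nat.eq_zero_or_pos l with rfl | hl
    · simp [h0]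
    · have h1 : p ^ l ≠ 1 := by
        exact (Nat.one_lt_pow (by omega) hp.one_lt).ne'
      have hl0 : l ≠ 0 := by omega
      rw [if_neg hl0, if_neg h1, mul_zero, add_zero]
  · rw [coeff_pSeries_of_not p _ _ hm, coeff_pSeries_of_not p _ _ hm]
    have h1 : m ≠ 1 := fun h => hm ⟨0, by simp [h]⟩
    simp [h1]

end Tokens

section Identity

variable {L : Type*} [CommRing L] [Algebra ℚ L]

/-- The key identity: `log(∑ v_i X^(p^(i+1))) + pX = p log X`. -/
theorem log_tokens_identity (v : ℕ → L) (N : ℕ) (hv : ∀ i, N ≤ i → v i = 0) :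
    ∑ i ∈ Finset.range N, PowerSeries.subst
        (PowerSeries.C (v i) * PowerSeries.X ^ (p ^ (i + 1)) : PowerSeries L) (logOf p v) +
      PowerSeries.C (p : L) * PowerSeries.X = PowerSeries.C (p : L) * logOf p v := by
  have hp := (Fact.out : p.Prime)
  rw [logOf, ← pSeries_add_C_mul_X p (ellOf p v) (ellOf_zero p v) (p : L)]
  simp only [subst_token_pSeries]
  rw [sum_pSeries]
  congr 2
  funext l
  rcases Nat.eq_zero_or_pos l with rfl | hl
  · simp
  rw [if_neg (by omega), ellOf_rec p v l hl]
  -- reindex `i ↦ i + 1` and discard the vanishing parameters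
  have h1 : ∑ i ∈ Finset.Icc 1 l, ellOf p v (l - i) * v (i - 1) ^ p ^ (l - i) =
      ∑ i ∈ Finset.range l, ellOf p v (l - (i + 1)) * v i ^ p ^ (l - (i + 1)) := by
    symm
    refine Finset.sum_bij (fun i _ => i + 1) ?_ ?_ ?_ ?_
    · intro a ha; simp only [Finset.mem_range] at ha; simp; omega
    · intro a _ b _ h; omega
    · intro b hb; simp only [Finset.mem_Icc] at hb; exact ⟨b - 1, by simp; omega, by omega⟩
    · intro a _; simp
  rw [h1]
  have h2 : ∑ i ∈ Finset.range N, (if i + 1 ≤ l then ellOf p v (l - (i + 1)) * v i ^ p ^ (l - (i + 1)) else 0) =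
      ∑ i ∈ Finset.range (max N l), (if i + 1 ≤ l then ellOf p v (l - (i + 1)) * v i ^ p ^ (l - (i + 1)) else 0) := by
    refine Finset.sum_subset (by intro x; simp; omega) ?_
    intro i _ hi
    simp only [Finset.mem_range, not_lt] at hi
    rw [hv i hi, zero_pow (pow_ne_zero _ hp.ne_zero), mul_zero, ite_self]
  have h3 : ∑ i ∈ Finset.range l, ellOf p v (l - (i + 1)) * v i ^ p ^ (l - (i + 1)) =
      ∑ i ∈ Finset.range (max N l), (if i + 1 ≤ l then ellOf p v (l - (i + 1)) * v i ^ p ^ (l - (i + 1)) else 0) := by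
    rw [← Finset.sum_filter]
    refine Finset.sum_congr ?_ fun _ _ => rfl
    ext x; simp; omega
  rw [h3, ← h2]

/-- Existence of `e` with `log(p e) = p X`. -/
theorem exists_log_p {B : Type*} [CommRing B] (ι : B →+* L) (hι : Function.Injective ι)
    (w : ℕ → B) : ∃ e : PowerSeries B, PowerSeries.constantCoeff e = 0 ∧
      PowerSeries.subst (PowerSeries.C (p : L) * PowerSeries.map ι e : PowerSeries L)
        (logOf p (fun i => ι (w i))) = PowerSeries.C (p : L) * PowerSeries.X := by
  have hp := (Fact.out : p.Prime)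
  set v : ℕ → L := fun i => ι (w i) with hv
  set g := logOf p v with hg
  have hlog := isLog_hzv p v
  -- inverse of `p`
  set pinv : L := algebraMap ℚ L (p : ℚ)⁻¹ with hpinv
  have hpp : (p : L) * pinv = 1 := by
    have h1 : ((p : ℚ) * (p : ℚ)⁻¹) = 1 := mul_inv_cancel₀ (Nat.cast_ne_zero.mpr hp.ne_zero)
    have h2 := congrArg (algebraMap ℚ L) h1
    rwa [map_mul, map_natCast, map_one] at h2
  set e₀ : PowerSeries L := PowerSeries.subst (PowerSeries.C (p : L) * PowerSeries.X : PowerSeries L)
    (compInv g) with he₀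
  have hpX : PowerSeries.constantCoeff (PowerSeries.C (p : L) * PowerSeries.X : PowerSeries L) = 0 := by
    simp
  have hpXs : PowerSeries.HasSubst (PowerSeries.C (p : L) * PowerSeries.X : PowerSeries L) :=
    PowerSeries.HasSubst.of_constantCoeff_zero' hpX
  have hexp0 : PowerSeries.constantCoeff (compInv g) = 0 := constantCoeff_compInv g hlog.c0 hlog.c1
  have he₀0 : PowerSeries.constantCoeff e₀ = 0 :=
    constantCoeff_subst_eq_zero' _ hexp0 _ hpX
  have hge₀ : PowerSeries.subst e₀ g = PowerSeries.C (p : L) * PowerSeries.X := by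
    rw [he₀, ← PowerSeries.subst_comp_subst_apply
      (PowerSeries.HasSubst.of_constantCoeff_zero' hexp0) hpXs]
    have : PowerSeries.subst (compInv g) g = PowerSeries.X := scomp_compInv g hlog.c0 hlog.c1
    rw [this, PowerSeries.subst_X hpXs]
  set e₁ : PowerSeries L := PowerSeries.C pinv * e₀ with he₁
  have he₁0 : PowerSeries.constantCoeff e₁ = 0 := by
    rw [he₁, map_mul, he₀0, mul_zero]
  have hpe₁ : PowerSeries.C (p : L) * e₁ = e₀ := by
    rw [he₁, ← mul_assoc, ← map_mul, hpp, map_one, one_mul]
  -- integrality of `e₁`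
  have hint : ∀ d : Unit →₀ ℕ, coeff d (e₁ : MvPowerSeries Unit L) ∈ ι.range := by
    intro d
    induction hn : d.degree using Nat.strong_induction_on generalizing d with
    | _ n ih =>
      rcases Nat.eq_zero_or_pos n with rfl | hnpos
      · have : d = 0 := by rwa [Finsupp.degree_eq_zero_iff] at hn
        subst this
        rw [coeff_zero_eq_constantCoeff_apply]
        change PowerSeries.constantCoeff e₁ ∈ _
        rw [he₁0]
        exact zero_mem _
      obtain ⟨h, hord, hh0⟩ := exists_lift_trunc ι (e₁ : MvPowerSeries Unit L) n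
        (fun d' hd' => ih _ hd' d' rfl) he₁0
      have hlt : d.degree < p ^ (n + 1) := by
        rw [hn]; exact lt_trans (Nat.lt_add_one _) (Nat.lt_pow_self hp.one_lt)
      have hcoef := congrArg (coeff d) hge₀
      rw [← hpe₁] at hcoef
      have hc0 : constantCoeff (PowerSeries.C (p : L) * e₁ : MvPowerSeries Unit L) = 0 := by
        change PowerSeries.constantCoeff (PowerSeries.C (p : L) * e₁) = 0
        rw [map_mul, he₁0, mul_zero]
      rw [hg, logOf, coeff_subst_pSeries p _ hc0 d (n + 1) hlt] at hcoef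
      have hsplit : Finset.range (n + 1) = insert 0 (Finset.Ico 1 (n + 1)) := by
        ext x; simp only [Finset.mem_range, Finset.mem_insert, Finset.mem_Ico]; omega
      rw [hsplit, Finset.sum_insert (by simp)] at hcoef
      simp only [pow_zero, pow_one, ellOf_zero, one_mul] at hcoef
      have hterm : ∀ k ∈ Finset.Ico 1 (n + 1), ∃ y : B, ellOf p v k *
          coeff d ((PowerSeries.C (p : L) * e₁ : MvPowerSeries Unit L) ^ (p ^ k)) =
            (p : L) * ι y := by
        intro k hk
        simp only [Finset.mem_Ico] at hk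
        obtain ⟨c, hc⟩ := ellOf_integral p ι w k
        have hk2 : 2 ≤ p ^ k := le_trans hp.two_le (Nat.le_self_pow (by omega) p)
        have hkk : k + 1 ≤ p ^ k := Nat.lt_pow_self hp.one_lt
        have hord2 := le_order_pow_sub_pow (a := (e₁ : MvPowerSeries Unit L)) (b := map ι h) he₁0
          (by rw [constantCoeff_map, hh0, map_zero]) hord hk2
        have hcoe : coeff d ((e₁ : MvPowerSeries Unit L) ^ (p ^ k)) = ι (coeff d (h ^ (p ^ k))) := by
          have hm : (map ι h) ^ (p ^ k) = map ι (h ^ (p ^ k)) := (_root_.map_pow _ _ _).symm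
          rw [← coeff_map, ← hm]
          have hd' : d.degree < n + 1 := by omega
          exact coeff_eq_of_le_order_sub hord2 hd'
        refine ⟨c * (p : B) ^ (p ^ k - (k + 1)) * coeff d (h ^ (p ^ k)), ?_⟩
        have hCp : (PowerSeries.C (p : L) : MvPowerSeries Unit L) ^ (p ^ k) =
            C ((p : L) ^ (p ^ k)) := by
          rw [← map_pow]; rfl
        rw [mul_pow, hCp, coeff_C_mul, hcoe, _root_.map_mul ι, _root_.map_mul ι, ← hc,
          _root_.map_pow ι, map_natCast ι]
        have hsplit2 : (p : L) ^ (p ^ k) = (p : L) * (p : L) ^ k * (p : L) ^ (p ^ k - (k + 1)) := by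
          rw [mul_comm (p : L), ← pow_succ, ← pow_add]
          congr 1
          omega
        rw [hsplit2]
        ring
      choose! y hy using hterm
      have hX : coeff d (PowerSeries.C (p : L) * PowerSeries.X : MvPowerSeries Unit L) ∈
          (fun z => (p : L) * ι z) '' (Set.univ : Set B) := by
        change coeff d ((C (p : L) : MvPowerSeries Unit L) * X ()) ∈ _
        rw [coeff_C_mul, coeff_X]
        split_ifs
        · exact ⟨1, trivial, by simp⟩
        · exact ⟨0, trivial, by simp⟩
      obtain ⟨x0, -, hx0⟩ := hX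
      have hC1 : coeff d (PowerSeries.C (p : L) * e₁ : MvPowerSeries Unit L) =
          (p : L) * coeff d (e₁ : MvPowerSeries Unit L) := by
        change coeff d ((C (p : L) : MvPowerSeries Unit L) * e₁) = _
        rw [coeff_C_mul]
      rw [Finset.sum_congr rfl hy, hC1, ← hx0, ← Finset.mul_sum, ← mul_add] at hcoef
      have hcancel := congrArg (fun z => pinv * z) hcoef
      simp only [← mul_assoc, mul_comm pinv (p : L), hpp, one_mul] at hcancel
      refine ⟨x0 - ∑ k ∈ Finset.Ico 1 (n + 1), y k, ?_⟩
      rw [map_sub, map_sum, ← hcancel]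
      ring
  choose e he using hint
  obtain ⟨E, hE⟩ : ∃ E : MvPowerSeries Unit B, ∀ d, coeff d E = e d := ⟨e, fun _ => rfl⟩
  have hmE : (map ι E : MvPowerSeries Unit L) = e₁ :=
    MvPowerSeries.ext fun d => by rw [coeff_map, hE, he]
  refine ⟨E, ?_, ?_⟩
  · apply hι
    have h1 : PowerSeries.constantCoeff (map ι E : MvPowerSeries Unit L) = 0 := by
      rw [hmE]; exact he₁0
    rw [map_zero]
    change constantCoeff (map ι E) = 0 at h1
    rw [constantCoeff_map] at h1
    exact h1
  · change PowerSeries.subst (PowerSeries.C (p : L) * (map ι E : MvPowerSeries Unit L)) g = _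
    rw [hmE, hpe₁, hge₀]

end Identity

end

end Crest.Agent.LT
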